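import Vale.Agent.P084.T.Final

/-!
# Tingley's problem in finite dimensions

Every finite-dimensional real normed space has the Mazur-Ulam property: every surjective isometry
from its unit sphere onto the unit sphere of any real normed space is the restriction of a
surjective linear isometry.
-/

namespace Vale.Agent.Results.P084.FiniteDimensional

open MeasureTheory Filter Topology Set Metric

open Vale.Agent.P084.T in
theorem result {X : Type*} [NormedAddCommGroup X] [NormedSpace ℝ X] [FiniteDimensional ℝ X]
    {Y : Type*} [NormedAddCommGroup Y] [NormedSpace ℝ Y]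
    (f : Metric.sphere (0 : X) 1 → Metric.sphere (0 : Y) 1)
    (hf : Isometry f) (hsurj : Function.Surjective f) :
    ∃ T : X ≃ₗᵢ[ℝ] Y, ∀ x : Metric.sphere (0 : X) 1, T (x : X) = (f x : Y) := by
  -- `F` is the positively homogeneous extension of `f`, `G` the one of the inverse of `f`
  obtain ⟨F, G, hF, hGF, hFG, hFf⟩ := start f hf hsurj
  have hG : HMap G := hF.inverse hGF hFG
  have hbF : Function.Bijective F := ⟨Function.LeftInverse.injective hGF,
    Function.RightInverse.surjective hFG⟩
  have hbG : Function.Bijective G := ⟨Function.LeftInverse.injective hFG,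
    Function.RightInverse.surjective hGF⟩
  rcases subsingleton_or_nontrivial X with hX | hX
  · -- the trivial case `X = 0`
    have h0 : ∀ y : Y, y = 0 := by
      intro y
      rw [← hFG y, Subsingleton.elim (G y) 0, hF.zero]
    have : Subsingleton Y := ⟨fun a b => by rw [h0 a, h0 b]⟩
    let Li : X →ₗᵢ[ℝ] Y := ⟨0, fun v => by rw [Subsingleton.elim v 0]; simp⟩
    refine ⟨⟨LinearEquiv.ofBijective Li.toLinearMap ⟨Li.injective, fun y =>
      ⟨0, Subsingleton.elim _ _⟩⟩, fun v => Li.norm_map v⟩, fun x => Subsingleton.elim _ _⟩
  · have : FiniteDimensional ℝ Y := hF.finiteDimensional hbF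
    have : Nontrivial Y := hbF.1.nontrivial
    let _ : MeasurableSpace X := borel X
    have : BorelSpace X := ⟨rfl⟩
    let _ : MeasurableSpace Y := borel Y
    have : BorelSpace Y := ⟨rfl⟩
    -- almost every derivative of `F` and of `G` is a linear isometry, so both are contractions
    have h1 : ∀ x y, ‖F x - F y‖ ≤ ‖x - y‖ := by
      refine lipschitz_one_of_ae (Measure.addHaar : Measure X) hF.lipschitz ?_
      filter_upwards [hF.ae_isometry hbF Measure.addHaar] with x hx v
      exact (hx v).le
    have h2 : ∀ x y, ‖G x - G y‖ ≤ ‖x - y‖ := by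
      refine lipschitz_one_of_ae (Measure.addHaar : Measure Y) hG.lipschitz ?_
      filter_upwards [hG.ae_isometry hbG Measure.addHaar] with x hx v
      exact (hx v).le
    -- hence `F` is an isometry of `X` onto `Y`, and it is linear by Mazur-Ulam
    obtain ⟨T, hT⟩ := exists_linear hGF hFG hF.zero h1 h2
    exact ⟨T, fun x => by rw [hT, hFf]⟩

end Vale.Agent.Results.P084.FiniteDimensional
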