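import Vale.Agent.P084.AFinal

namespace Vale.Agent.Results.P084.SpearVector

open P084A in
theorem result {X Y : Type*} [NormedAddCommGroup X] [NormedSpace ℝ X]
    [NormedAddCommGroup Y] [NormedSpace ℝ Y]
    (e : X) (he : ‖e‖ = 1) (hspear : ∀ x : X, ‖x‖ = 1 → ‖x + e‖ = 2 ∨ ‖x - e‖ = 2)
    (f : Metric.sphere (0 : X) 1 → Metric.sphere (0 : Y) 1)
    (hf : Isometry f) (hsurj : Function.Surjective f) :
    ∃ T : X ≃ₗᵢ[ℝ] Y, ∀ x : Metric.sphere (0 : X) 1, T (x : X) = (f x : Y) := by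
  classical
  have hn : ∀ {x : X}, ‖x‖ = 1 → x ∈ Metric.sphere (0 : X) 1 := fun h => by
    rwa [mem_sphere_zero_iff_norm]
  have hn' : ∀ {y : Y}, ‖y‖ = 1 → y ∈ Metric.sphere (0 : Y) 1 := fun h => by
    rwa [mem_sphere_zero_iff_norm]
  have hs : ∀ x : Metric.sphere (0 : X) 1, ‖(x : X)‖ = 1 := fun x =>
    mem_sphere_zero_iff_norm.1 x.2
  have hs' : ∀ y : Metric.sphere (0 : Y) 1, ‖(y : Y)‖ = 1 := fun y =>
    mem_sphere_zero_iff_norm.1 y.2
  choose g hg using hsurj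
  have hgf : ∀ x, g (f x) = x := fun x => hf.injective (hg (f x))
  let F : X → Y := fun x => if h : ‖x‖ = 1 then f ⟨x, hn h⟩ else 0
  let G : Y → X := fun y => if h : ‖y‖ = 1 then g ⟨y, hn' h⟩ else 0
  have hF : ∀ (x : X) (h : ‖x‖ = 1), F x = f ⟨x, hn h⟩ := fun x h => dif_pos h
  have hG : ∀ (y : Y) (h : ‖y‖ = 1), G y = g ⟨y, hn' h⟩ := fun y h => dif_pos h
  have hFn : ∀ x, ‖x‖ = 1 → ‖F x‖ = 1 := fun x h => by rw [hF x h]; exact hs' _
  have hGn : ∀ y, ‖y‖ = 1 → ‖G y‖ = 1 := fun y h => by rw [hG y h]; exact hs _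
  have hiso : SphIso F G :=
    { norm_F := hFn
      norm_G := hGn
      GF := fun x h => by
        rw [hG _ (hFn x h)]
        have h1 : (⟨F x, hn' (hFn x h)⟩ : Metric.sphere (0 : Y) 1) = f ⟨x, hn h⟩ :=
          Subtype.ext (hF x h)
        rw [h1, hgf]
      FG := fun y h => by
        rw [hF _ (hGn y h)]
        have h1 : (⟨G y, hn (hGn y h)⟩ : Metric.sphere (0 : X) 1) = g ⟨y, hn' h⟩ :=
          Subtype.ext (hG y h)
        rw [h1, hg]
      dist := fun x y hx hy => by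
        rw [hF x hx, hF y hy, ← dist_eq_norm, ← dist_eq_norm, ← Subtype.dist_eq, hf.dist_eq,
          Subtype.dist_eq] }
  obtain ⟨T, hT⟩ := hiso.linear (e := e) ⟨he, hspear⟩
  refine ⟨T, fun x => ?_⟩
  rw [← hT x (hs x), hF x (hs x)]

end Vale.Agent.Results.P084.SpearVector
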