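import Vale.Agent.P084.CLin
import Vale.Agent.P084.CGlobal
import Vale.Agent.P084.CStart
import Vale.Agent.P084.CTouch

namespace Vale.Agent.Results.P084.StrictlyConvexC2

open Vale.Agent.P084 in
theorem result {X : Type*} [NormedAddCommGroup X] [NormedSpace ℝ X]
    [FiniteDimensional ℝ X] [StrictConvexSpace ℝ X] (hdim : 3 ≤ Module.finrank ℝ X)
    (hC2 : ∃ U : Set X, IsOpen U ∧ U.Nonempty ∧ ContDiffOn ℝ 2 (fun x : X => ‖x‖) U)
    {Y : Type*} [NormedAddCommGroup Y] [NormedSpace ℝ Y]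
    (f : Metric.sphere (0 : X) 1 → Metric.sphere (0 : Y) 1)
    (hf : Isometry f) (hsurj : Function.Surjective f) :
    ∃ T : X ≃ₗᵢ[ℝ] Y, ∀ x : Metric.sphere (0 : X) 1, T (x : X) = (f x : Y) := by
  obtain ⟨U, hU, hne, hC⟩ := hC2
  have hnt : Nontrivial X := Module.nontrivial_of_finrank_pos (R := ℝ) (by omega)
  obtain ⟨F, G, hF, hGF, hFG, hFf⟩ := start f hf hsurj
  have hYfd : FiniteDimensional ℝ Y := hF.finiteDimensional hFG
  have hYsc : StrictConvexSpace ℝ Y := hF.strictConvex hFG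
  obtain ⟨x0, hx0, hX, hpos⟩ := exists_pos_unit U hU hne hC
  have hx0' : x0 ≠ 0 := by
    rintro rfl
    simp at hx0
  obtain ⟨x1, hx1, hd, T, hT⟩ := local_linear hdim hF hGF hFG hx0' hX hpos
  have hall : ∀ x, F x = T x := global_step (by omega) hF x1 hx1 hd T hT
  refine ⟨⟨T.toLinearEquiv, fun x => ?_⟩, fun x => ?_⟩
  · have h1 := hF.norm_map x
    rw [hall x] at h1
    exact h1
  · have h1 := hFf x
    rw [hall x] at h1
    exact h1

end Vale.Agent.Results.P084.StrictlyConvexC2
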