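import Vale.Agent.P084.T.Final

/-!
# Tingley's problem when one of the two spaces is finite-dimensional
-/

namespace Vale.Agent.Results.P084.TingleyFinite

open Metric

open Vale.Agent.P084.T in
theorem result (X Y : Type*) [NormedAddCommGroup X] [NormedSpace ℝ X]
    [NormedAddCommGroup Y] [NormedSpace ℝ Y]
    (hfin : FiniteDimensional ℝ X ∨ FiniteDimensional ℝ Y)
    (f : sphere (0 : X) 1 → sphere (0 : Y) 1) (hsurj : Function.Surjective f)
    (hf : ∀ x y : sphere (0 : X) 1, ‖(f x : Y) - (f y : Y)‖ = ‖(x : X) - (y : X)‖) :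
    ∃ T : X →ₗ[ℝ] Y, (∀ x : X, ‖T x‖ = ‖x‖) ∧ Function.Surjective T ∧
      ∀ x : sphere (0 : X) 1, T (x : X) = (f x : Y) := by
  have hiso : Isometry f := by
    refine Isometry.of_dist_eq fun x y => ?_
    rw [Subtype.dist_eq, Subtype.dist_eq, dist_eq_norm, dist_eq_norm, hf]
  rcases hfin with hX | hY
  · obtain ⟨T, hT⟩ := main f hiso hsurj
    exact ⟨T.toLinearEquiv.toLinearMap, fun x => T.norm_map x, T.surjective, hT⟩
  · obtain ⟨g, hg1, hg2⟩ := Function.bijective_iff_has_inverse.1 ⟨hiso.injective, hsurj⟩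
    have hgiso : Isometry g := by
      refine Isometry.of_dist_eq fun x y => ?_
      rw [← hiso.dist_eq, hg2, hg2]
    obtain ⟨T, hT⟩ := main g hgiso hg1.surjective
    refine ⟨T.symm.toLinearEquiv.toLinearMap, fun x => T.symm.norm_map x,
      T.symm.surjective, fun x => ?_⟩
    have h1 := hT (f x)
    rw [hg1] at h1
    change T.symm (x : X) = _
    rw [← h1, T.symm_apply_apply]

end Vale.Agent.Results.P084.TingleyFinite
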